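import Vale.Agent.Lib.P137A.A2

open MeasureTheory Set Metric TopologicalSpace
open scoped ENNReal Pointwise

namespace Vale.Agent.Lib.P137A

variable {E : Type*} [NormedAddCommGroup E] [NormedSpace ℝ E] [MeasurableSpace E] [BorelSpace E]
  [FiniteDimensional ℝ E] (μ : Measure E) [μ.IsAddHaarMeasure]

/-- Layer cake for the positive part of a difference of two nonnegative functions. -/
theorem lintegral_ofReal_sub_eq {u v : E → ℝ} (hu : Measurable u) (hv : Measurable v)
    (hv0 : ∀ x, 0 ≤ v x) :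
    ∫⁻ x, ENNReal.ofReal (u x - v x) ∂μ =
      ∫⁻ l in Ioi (0 : ℝ), μ ({x | l < u x} \ {x | l < v x}) := by
  set S : Set (E × ℝ) := {p | 0 < p.2 ∧ v p.1 ≤ p.2 ∧ p.2 < u p.1} with hS
  have hSm : MeasurableSet S := by
    have h1 : MeasurableSet {p : E × ℝ | 0 < p.2} := measurableSet_lt measurable_const measurable_snd
    have h2 : MeasurableSet {p : E × ℝ | v p.1 ≤ p.2} :=
      measurableSet_le (hv.comp measurable_fst) measurable_snd
    have h3 : MeasurableSet {p : E × ℝ | p.2 < u p.1} :=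
      measurableSet_lt measurable_snd (hu.comp measurable_fst)
    exact h1.inter (h2.inter h3)
  have h1 : (μ.prod volume) S = ∫⁻ x, ENNReal.ofReal (u x - v x) ∂μ := by
    rw [Measure.prod_apply hSm]
    apply lintegral_congr
    intro x
    have : Prod.mk x ⁻¹' S = Ico (v x) (u x) \ {0} := by
      ext l
      simp only [hS, mem_preimage, mem_setOf_eq, mem_sdiff, mem_Ico, mem_singleton_iff]
      constructor
      · rintro ⟨h0, h1, h2⟩
        exact ⟨⟨h1, h2⟩, h0.ne'⟩
      · rintro ⟨⟨h1, h2⟩, h3⟩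
        exact ⟨lt_of_le_of_ne (le_trans (hv0 x) h1) (Ne.symm h3), h1, h2⟩
    rw [this, measure_sdiff_null (by simp), Real.volume_Ico]
  have h2 : (μ.prod volume) S = ∫⁻ l in Ioi (0 : ℝ), μ ({x | l < u x} \ {x | l < v x}) := by
    rw [Measure.prod_apply_symm hSm, ← lintegral_indicator measurableSet_Ioi]
    apply lintegral_congr
    intro l
    by_cases hl : 0 < l
    · rw [indicator_of_mem (mem_Ioi.2 hl)]
      congr 1
      ext x
      simp only [hS, mem_preimage, mem_setOf_eq, mem_sdiff, not_lt]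
      constructor
      · rintro ⟨_, h1, h2⟩
        exact ⟨h2, h1⟩
      · rintro ⟨h1, h2⟩
        exact ⟨hl, h2, h1⟩
    · rw [indicator_of_notMem (by simpa using hl)]
      have : (fun x => (x, l)) ⁻¹' S = ∅ := by
        ext x
        simp only [hS, mem_preimage, mem_setOf_eq, mem_empty_iff_false, iff_false]
        rintro ⟨h0, _⟩
        exact hl h0
      rw [this, measure_empty]
  rw [← h1, h2]

/-- The variation of a function is controlled by the shells of its level sets. -/
theorem lintegral_translate_le_shell {u : E → ℝ} (hu : Measurable u) (hu0 : ∀ x, 0 ≤ u x)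
    {h : E} {e : ℝ} (hh : ‖h‖ < e) :
    ∫⁻ x, ENNReal.ofReal |u (x + h) - u x| ∂μ ≤
      2 * ∫⁻ l in Ioi (0 : ℝ), μ (shell e {x | l < u x}) := by
  have huh : Measurable fun x => u (x + h) := hu.comp (measurable_add_const h)
  have hsplit : ∀ x, ENNReal.ofReal |u (x + h) - u x| =
      ENNReal.ofReal (u (x + h) - u x) + ENNReal.ofReal (u x - u (x + h)) := by
    intro x
    rcases le_total 0 (u (x + h) - u x) with h1 | h1
    · rw [abs_of_nonneg h1, ENNReal.ofReal_of_nonpos (by linarith : u x - u (x + h) ≤ 0), add_zero]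
    · rw [abs_of_nonpos h1, ENNReal.ofReal_of_nonpos h1, zero_add, neg_sub]
  simp_rw [hsplit]
  have hm1 : Measurable fun x => ENNReal.ofReal (u (x + h) - u x) :=
    ENNReal.measurable_ofReal.comp (huh.sub hu)
  rw [lintegral_add_left hm1,
    lintegral_ofReal_sub_eq μ huh hu hu0, lintegral_ofReal_sub_eq μ hu huh (fun x => hu0 _), two_mul]
  have h1 : ∀ l : ℝ, μ ({x | l < u (x + h)} \ {x | l < u x}) ≤ μ (shell e {x | l < u x}) := by
    intro l
    apply measure_mono
    rintro x ⟨hx1, hx2⟩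
    refine ⟨?_, hx2⟩
    rw [mem_thickening_iff]
    refine ⟨x + h, hx1, ?_⟩
    simpa [dist_eq_norm] using hh
  have h2 : ∀ l : ℝ, μ ({x | l < u x} \ {x | l < u (x + h)}) ≤ μ (shell e {x | l < u x}) := by
    intro l
    have hpre : {x | l < u x} \ {x | l < u (x + h)} =
        (fun x => x + h) ⁻¹' ({y | l < u (y - h)} \ {y | l < u y}) := by
      ext x
      simp
    rw [hpre, measure_preimage_add_right]
    apply measure_mono
    rintro y ⟨hy1, hy2⟩
    refine ⟨?_, hy2⟩
    rw [mem_thickening_iff]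
    refine ⟨y - h, hy1, ?_⟩
    simpa [dist_eq_norm] using hh
  exact add_le_add (lintegral_mono fun l => h1 l) (lintegral_mono fun l => h2 l)

/-- The abstract data of Part A. -/
structure LevelData (a : ℕ → E → ℝ) (r : ℕ → ℝ) : Prop where
  meas : ∀ j, Measurable (a j)
  nonneg : ∀ j x, 0 ≤ a j x
  rpos : ∀ j, 0 < r j
  isOpen : ∀ j l, 0 < l → IsOpen {x | l < a j x}
  balls : ∀ j l, 0 < l → ∃ F : Set (E × ℝ), (∀ p ∈ F, r j ≤ p.2) ∧
    {x | l < a j x} = {x | l < a (j + 1) x} ∪ ⋃ p ∈ F, ball p.1 p.2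
  top : ∀ l, 0 < l → ∃ J, ∀ x, a J x ≤ l

/-- Part A at one small scale. -/
theorem partA_shell {a : ℕ → E → ℝ} {r : ℕ → ℝ} (H : LevelData a r) {e : ℝ} (he : 0 < e) {l : ℝ}
    (hl : 0 < l) :
    μ (shell e {x | l < a 0 x}) ≤
      ∑' j, ENNReal.ofReal (kappa E e (r j)) * μ ({x | l < a j x} \ {x | l < a (j + 1) x}) := by
  obtain ⟨J, hJ⟩ := H.top l hl
  choose F hF1 hF2 using fun j => H.balls j l hl
  have hempty : {x | l < a J x} = ∅ := by
    ext x
    simpa using hJ x
  calc μ (shell e {x | l < a 0 x})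
      ≤ ∑ j ∈ Finset.range J, ENNReal.ofReal (kappa E e (r j))
          * μ ({x | l < a j x} \ {x | l < a (j + 1) x}) :=
        shell_chain_le μ (fun j => {x | l < a j x}) (fun j => H.isOpen j l hl) r H.rpos he F hF1
          hF2 hempty
    _ ≤ _ := ENNReal.sum_le_tsum _

/-- Part A, for a translation smaller than the shell width. -/
theorem partA_small {a : ℕ → E → ℝ} {r : ℕ → ℝ} (H : LevelData a r) {e : ℝ} (he : 0 < e) {h : E}
    (hh : ‖h‖ < e) :
    ∫⁻ x, ENNReal.ofReal |a 0 (x + h) - a 0 x| ∂μ ≤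
      2 * ∑' j, ENNReal.ofReal (kappa E e (r j)) *
        ∫⁻ x, ENNReal.ofReal (a j x - a (j + 1) x) ∂μ := by
  refine (lintegral_translate_le_shell μ (H.meas 0) (H.nonneg 0) hh).trans ?_
  gcongr
  calc ∫⁻ l in Ioi (0 : ℝ), μ (shell e {x | l < a 0 x})
      ≤ ∫⁻ l in Ioi (0 : ℝ), ∑' j, ENNReal.ofReal (kappa E e (r j))
          * μ ({x | l < a j x} \ {x | l < a (j + 1) x}) :=
        setLIntegral_mono' measurableSet_Ioi (fun l hl => partA_shell μ H he hl)
    _ = ∑' j, ∫⁻ l in Ioi (0 : ℝ), ENNReal.ofReal (kappa E e (r j))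
          * μ ({x | l < a j x} \ {x | l < a (j + 1) x}) := by
        rw [lintegral_tsum]
        intro j
        apply AEMeasurable.const_mul
        apply Measurable.aemeasurable
        have hm : MeasurableSet {p : E × ℝ | p.2 < a j p.1 ∧ ¬ p.2 < a (j + 1) p.1} :=
          (measurableSet_lt measurable_snd ((H.meas j).comp measurable_fst)).inter
            (measurableSet_lt measurable_snd ((H.meas (j + 1)).comp measurable_fst)).compl
        exact measurable_measure_prodMk_right hm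
    _ = ∑' j, ENNReal.ofReal (kappa E e (r j)) *
          ∫⁻ x, ENNReal.ofReal (a j x - a (j + 1) x) ∂μ := by
        congr 1
        ext j
        rw [lintegral_const_mul', lintegral_ofReal_sub_eq μ (H.meas j) (H.meas (j + 1))
          (H.nonneg (j + 1))]
        exact ENNReal.ofReal_ne_top

omit [MeasurableSpace E] [BorelSpace E] [FiniteDimensional ℝ E] in
/-- Elementary bound for `kappa`. -/
lemma kappa_le {e ρ : ℝ} (he : 0 ≤ e) (hρ : 0 < ρ) (hsmall : 2 * Module.finrank ℝ E * e ≤ ρ) :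
    kappa E e ρ ≤ 2 * Module.finrank ℝ E * e / ρ := by
  unfold kappa
  set d := Module.finrank ℝ E
  set t := e / ρ with ht
  have ht0 : 0 ≤ t := div_nonneg he hρ.le
  have hdt : 2 * (d : ℝ) * t ≤ 1 := by
    rw [ht, ← mul_div_assoc, div_le_one hρ]
    exact hsmall
  have key : ∀ k : ℕ, k ≤ d → (1 + t) ^ k ≤ 1 + 2 * (k : ℝ) * t := by
    intro k
    induction k with
    | zero => simp
    | succ k ih =>
      intro hk
      have h1 := ih (by omega)
      have h2 : 2 * (k : ℝ) * t ≤ 1 := by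
        have : (k : ℝ) ≤ d := by exact_mod_cast (by omega : k ≤ d)
        nlinarith
      rw [pow_succ]
      have hp : 0 ≤ 1 + t := by linarith
      calc (1 + t) ^ k * (1 + t) ≤ (1 + 2 * (k : ℝ) * t) * (1 + t) := by gcongr
        _ = 1 + (2 * (k : ℝ) + 1) * t + (2 * (k : ℝ) * t) * t := by ring
        _ ≤ 1 + (2 * (k : ℝ) + 1) * t + 1 * t := by gcongr
        _ = 1 + 2 * ((k + 1 : ℕ) : ℝ) * t := by push_cast; ring
  have := key d le_rfl
  have h3 : 2 * (d : ℝ) * e / ρ = 2 * (d : ℝ) * t := by rw [ht]; ring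
  rw [h3]
  linarith

/-- Subadditivity along `N` equal steps. -/
theorem lintegral_translate_nsmul_le (u : E → ℝ) (hu : Measurable u) (h : E) (N : ℕ) :
    ∫⁻ x, ENNReal.ofReal |u (x + N • h) - u x| ∂μ ≤
      N * ∫⁻ x, ENNReal.ofReal |u (x + h) - u x| ∂μ := by
  induction N with
  | zero => simp
  | succ N ih =>
    have hshift : ∫⁻ x, ENNReal.ofReal |u (x + N • h + h) - u (x + N • h)| ∂μ =
        ∫⁻ x, ENNReal.ofReal |u (x + h) - u x| ∂μ :=
      lintegral_add_right_eq_self (μ := μ) (fun x => ENNReal.ofReal |u (x + h) - u x|) (N • h)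
    have hm : Measurable fun x => ENNReal.ofReal |u (x + N • h + h) - u (x + N • h)| := by
      apply ENNReal.measurable_ofReal.comp
      apply Measurable.abs
      exact (hu.comp ((measurable_add_const _).add_const _)).sub
        (hu.comp (measurable_add_const _))
    calc ∫⁻ x, ENNReal.ofReal |u (x + (N + 1) • h) - u x| ∂μ
        ≤ ∫⁻ x, (ENNReal.ofReal |u (x + N • h + h) - u (x + N • h)|
            + ENNReal.ofReal |u (x + N • h) - u x|) ∂μ := by
          apply lintegral_mono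
          intro x
          show ENNReal.ofReal |u (x + (N + 1) • h) - u x| ≤
            ENNReal.ofReal |u (x + N • h + h) - u (x + N • h)| + ENNReal.ofReal |u (x + N • h) - u x|
          rw [← ENNReal.ofReal_add (abs_nonneg _) (abs_nonneg _)]
          apply ENNReal.ofReal_le_ofReal
          have : x + (N + 1) • h = x + N • h + h := by rw [succ_nsmul, add_assoc]
          rw [this]
          exact abs_sub_le _ _ _
      _ = ∫⁻ x, ENNReal.ofReal |u (x + N • h + h) - u (x + N • h)| ∂μ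
            + ∫⁻ x, ENNReal.ofReal |u (x + N • h) - u x| ∂μ := lintegral_add_left hm _
      _ ≤ ∫⁻ x, ENNReal.ofReal |u (x + h) - u x| ∂μ
            + N * ∫⁻ x, ENNReal.ofReal |u (x + h) - u x| ∂μ := by
          rw [hshift]
          gcongr
      _ = ((N + 1 : ℕ) : ℝ≥0∞) * ∫⁻ x, ENNReal.ofReal |u (x + h) - u x| ∂μ := by
          push_cast
          ring

/-- PART A of the P137 blueprint. For a decreasing family of sup-of-averages type functions:
`∫ |a_0(x+h) - a_0(x)| dx ≤ 8 d |h| ∑_j (1/r_j) ∫ (a_j - a_{j+1})`. -/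
theorem partA {a : ℕ → E → ℝ} {r : ℕ → ℝ} (H : LevelData a r) {r0 : ℝ} (hr0 : 0 < r0)
    (hr : ∀ j, r0 ≤ r j) (h : E) :
    ∫⁻ x, ENNReal.ofReal |a 0 (x + h) - a 0 x| ∂μ ≤
      ENNReal.ofReal (8 * Module.finrank ℝ E * ‖h‖) *
        ∑' j, ENNReal.ofReal (1 / r j) * ∫⁻ x, ENNReal.ofReal (a j x - a (j + 1) x) ∂μ := by
  rcases eq_or_ne h 0 with rfl | hne
  · simp
  set d := Module.finrank ℝ E with hd
  have hn : 0 < ‖h‖ := norm_pos_iff.2 hne
  -- choose the number of steps
  obtain ⟨N, hN⟩ := exists_nat_gt (4 * (d : ℝ) * ‖h‖ / r0)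
  set M := N + 1 with hM
  have hMpos : (0 : ℝ) < M := by positivity
  have hNM : 4 * (d : ℝ) * ‖h‖ / r0 < M := by
    rw [hM]; push_cast; linarith
  set e := 2 * ‖h‖ / M with he
  have he0 : 0 < e := by positivity
  set g : E := (M : ℝ)⁻¹ • h with hg
  have hgn : ‖g‖ < e := by
    rw [hg, norm_smul, Real.norm_of_nonneg (by positivity), he]
    rw [inv_mul_eq_div]
    apply div_lt_div_of_pos_right _ hMpos
    linarith
  have hMg : M • g = h := by
    rw [hg, ← Nat.cast_smul_eq_nsmul ℝ, smul_smul, mul_inv_cancel₀ hMpos.ne', one_smul]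
  have hsmall : ∀ j, 2 * (d : ℝ) * e ≤ r j := by
    intro j
    refine le_trans ?_ (hr j)
    rw [he]
    rw [div_lt_iff₀ hr0] at hNM
    rw [mul_div_assoc', div_le_iff₀ hMpos]
    nlinarith
  have hkappa : ∀ j, ENNReal.ofReal (kappa E e (r j)) ≤
      ENNReal.ofReal (2 * (d : ℝ) * e) * ENNReal.ofReal (1 / r j) := by
    intro j
    rw [← ENNReal.ofReal_mul (by positivity)]
    apply ENNReal.ofReal_le_ofReal
    refine (kappa_le he0.le (H.rpos j) (hsmall j)).trans (le_of_eq ?_)
    ring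
  have h1 := partA_small μ H he0 hgn
  have h2 := lintegral_translate_nsmul_le μ (a 0) (H.meas 0) g M
  rw [hMg] at h2
  refine h2.trans ?_
  calc (M : ℝ≥0∞) * ∫⁻ x, ENNReal.ofReal |a 0 (x + g) - a 0 x| ∂μ
      ≤ M * (2 * ∑' j, ENNReal.ofReal (kappa E e (r j)) *
          ∫⁻ x, ENNReal.ofReal (a j x - a (j + 1) x) ∂μ) := by gcongr
    _ ≤ M * (2 * ∑' j, (ENNReal.ofReal (2 * (d : ℝ) * e) * ENNReal.ofReal (1 / r j)) *
          ∫⁻ x, ENNReal.ofReal (a j x - a (j + 1) x) ∂μ) := by
        gcongr with j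
        exact hkappa j
    _ = (M * (2 * ENNReal.ofReal (2 * (d : ℝ) * e))) *
          ∑' j, ENNReal.ofReal (1 / r j) * ∫⁻ x, ENNReal.ofReal (a j x - a (j + 1) x) ∂μ := by
        simp_rw [mul_assoc (ENNReal.ofReal (2 * (d : ℝ) * e))]
        rw [ENNReal.tsum_mul_left]
        ring
    _ = _ := by
        congr 1
        have h2e : (M : ℝ≥0∞) = ENNReal.ofReal (M : ℝ) := by simp
        have h22 : (2 : ℝ≥0∞) = ENNReal.ofReal 2 := by simp
        rw [h2e, h22, ← ENNReal.ofReal_mul (by positivity), ← ENNReal.ofReal_mul (by positivity)]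
        congr 1
        rw [he]
        field_simp
        ring

end Vale.Agent.Lib.P137A
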