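import Mathlib

open MeasureTheory Set Metric
open scoped ENNReal Pointwise

namespace Vale.Agent.Lib.P137A

variable {E : Type*} [NormedAddCommGroup E] [NormedSpace ℝ E] [MeasurableSpace E] [BorelSpace E]
  [FiniteDimensional ℝ E] (μ : Measure E) [μ.IsAddHaarMeasure]

/-- The ratio constant in the ball-adding lemma. -/
noncomputable def kappa (E : Type*) [NormedAddCommGroup E] [NormedSpace ℝ E] (e r : ℝ) : ℝ :=
  (1 + e / r) ^ Module.finrank ℝ E - 1

lemma kappa_nonneg {e r : ℝ} (he : 0 ≤ e) (hr : 0 < r) : 0 ≤ kappa E e r := by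
  unfold kappa
  have : (1 : ℝ) ≤ 1 + e / r := by
    have := div_nonneg he hr.le
    linarith
  have := one_le_pow₀ this (n := Module.finrank ℝ E)
  linarith

/-- The key inclusion: points of the enlarged ball at distance at least `e` from `W`
are the images under the homothety of ratio `(r+e)/r` of points of the ball outside `W`. -/
lemma subset_homothety_image {W : Set E} {c : E} {r e : ℝ} (hr : 0 < r) (he : 0 < e) :
    ball c (r + e) \ thickening e W ⊆
      AffineMap.homothety c ((r + e) / r) '' (ball c r \ W) := by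
  intro x hx
  rcases hx with ⟨hx1, hx2⟩
  have hre : 0 < r + e := by linarith
  have hq : (r + e) / r ≠ 0 := (div_pos hre hr).ne'
  refine ⟨AffineMap.homothety c (r / (r + e)) x, ⟨?_, ?_⟩, ?_⟩
  · -- the preimage lies in the ball
    rw [mem_ball, dist_eq_norm, AffineMap.homothety_apply]
    simp only [vsub_eq_sub, vadd_eq_add, add_sub_cancel_right, norm_smul]
    have h1 : ‖x - c‖ < r + e := by simpa [dist_eq_norm] using hx1
    rw [Real.norm_of_nonneg (div_nonneg hr.le hre.le)]
    calc r / (r + e) * ‖x - c‖ < r / (r + e) * (r + e) :=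
          mul_lt_mul_of_pos_left h1 (div_pos hr hre)
      _ = r := by field_simp
  · -- the preimage is not in `W`
    intro hW
    apply hx2
    rw [mem_thickening_iff]
    refine ⟨_, hW, ?_⟩
    rw [dist_eq_norm, AffineMap.homothety_apply]
    have h1 : ‖x - c‖ < r + e := by simpa [dist_eq_norm] using hx1
    have : x - ((r / (r + e)) • (x -ᵥ c) +ᵥ c) = (e / (r + e)) • (x - c) := by
      simp only [vsub_eq_sub, vadd_eq_add]
      have : (e / (r + e)) = 1 - r / (r + e) := by field_simp; ring
      rw [this, sub_smul, one_smul]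
      abel
    rw [this, norm_smul, Real.norm_of_nonneg (div_nonneg he.le hre.le)]
    calc e / (r + e) * ‖x - c‖ < e / (r + e) * (r + e) :=
          mul_lt_mul_of_pos_left h1 (div_pos he hre)
      _ = e := by field_simp
  · -- the two homotheties are inverse
    rw [AffineMap.homothety_apply, AffineMap.homothety_apply]
    simp only [vsub_eq_sub, vadd_eq_add, add_sub_cancel_right, smul_smul]
    have : (r + e) / r * (r / (r + e)) = 1 := by field_simp
    rw [this, one_smul]
    abel

/-- LEMMA A1 of the P137 blueprint, with the better constant `(1+e/r)^d - 1` and a proof by a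
homothety instead of polar coordinates: adding an open ball of radius `r` to an open set `W`
increases the measure of the outer `e`-shell by at most `kappa e r` times the new volume. -/
theorem shell_union_ball_le {W : Set E} (hW : IsOpen W) (c : E) {r e : ℝ} (hr : 0 < r)
    (he : 0 < e) :
    μ (thickening e (W ∪ ball c r) \ (W ∪ ball c r)) ≤
      μ (thickening e W \ W) + ENNReal.ofReal (kappa E e r) * μ (ball c r \ W) := by
  set Th := thickening e W with hTh
  set B := ball c r with hB
  have hThO : IsOpen Th := isOpen_thickening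
  have hBO : IsOpen B := isOpen_ball
  have hWTh : W ⊆ Th := self_subset_thickening he W
  set B' := ball c (r + e) with hB'
  have hthB : thickening e B = B' := by
    rw [hB, hB', thickening_ball he hr, add_comm]
  have hre : 0 < r + e := by linarith
  have hq : 0 < (r + e) / r := div_pos hre hr
  have hBfin : μ B ≠ ∞ := measure_ball_lt_top.ne
  -- the pieces
  set S1 := (Th \ W) \ B with hS1
  set Z := (Th \ W) ∩ B with hZ
  set A := (B' \ B) \ Th with hA
  set Y := B \ Th with hY
  -- the shell is covered by `S1` and `A`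
  have hcover : thickening e (W ∪ B) \ (W ∪ B) ⊆ S1 ∪ A := by
    rw [thickening_union, hthB]
    rintro x ⟨hx1 | hx1, hx2⟩
    · by_cases hxB : x ∈ B
      · exact absurd (Or.inr hxB) hx2
      · refine Or.inl ⟨⟨hx1, fun h => hx2 (Or.inl h)⟩, hxB⟩
    · by_cases hxTh : x ∈ Th
      · refine Or.inl ⟨⟨hxTh, fun h => hx2 (Or.inl h)⟩, fun h => hx2 (Or.inr h)⟩
      · exact Or.inr ⟨⟨hx1, fun h => hx2 (Or.inr h)⟩, hxTh⟩
  have hZm : MeasurableSet Z := (hThO.measurableSet.diff hW.measurableSet).inter hBO.measurableSet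
  have hS1Z : μ S1 + μ Z = μ (Th \ W) := by
    rw [add_comm, hS1, hZ]
    exact measure_inter_add_diff _ hBO.measurableSet
  have hBB' : B ⊆ B' := ball_subset_ball (by linarith)
  -- measure of the enlarged region
  have hQ : μ (B' \ Th) ≤ ENNReal.ofReal (((r + e) / r) ^ Module.finrank ℝ E) * μ (B \ W) := by
    have h1 := measure_mono (μ := μ) (subset_homothety_image (W := W) (c := c) hr he)
    rw [Measure.addHaar_image_homothety] at h1
    rw [abs_of_pos (pow_pos hq _)] at h1
    exact h1
  have hAY : μ A + μ Y = μ (B' \ Th) := by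
    have hd : Disjoint A Y := by
      rw [Set.disjoint_left]
      rintro x ⟨⟨_, h1⟩, _⟩ ⟨h3, _⟩
      exact h1 h3
    have hu : A ∪ Y = B' \ Th := by
      ext x
      simp only [hA, hY, mem_union, mem_diff]
      constructor
      · rintro (⟨⟨h1, _⟩, h3⟩ | ⟨h1, h2⟩)
        · exact ⟨h1, h3⟩
        · exact ⟨hBB' h1, h2⟩
      · rintro ⟨h1, h2⟩
        by_cases h : x ∈ B
        · exact Or.inr ⟨h, h2⟩
        · exact Or.inl ⟨⟨h1, h⟩, h2⟩
    rw [← hu, measure_union hd (hBO.measurableSet.diff hThO.measurableSet)]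
  have hYZ : μ Y + μ Z = μ (B \ W) := by
    have hd : Disjoint Y Z := by
      rw [Set.disjoint_left]
      rintro x ⟨_, h2⟩ ⟨⟨h3, _⟩, _⟩
      exact h2 h3
    have hu : Y ∪ Z = B \ W := by
      ext x
      simp only [hY, hZ, mem_union, mem_diff, mem_inter_iff]
      constructor
      · rintro (⟨h1, h2⟩ | ⟨⟨_, h2⟩, h3⟩)
        · exact ⟨h1, fun h => h2 (hWTh h)⟩
        · exact ⟨h3, h2⟩
      · rintro ⟨h1, h2⟩
        by_cases h : x ∈ Th
        · exact Or.inr ⟨⟨h, h2⟩, h1⟩
        · exact Or.inl ⟨h1, h⟩
    rw [← hu, measure_union hd hZm]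
  -- the ratio splits as `1 + kappa`
  have hk : kappa E e r = ((r + e) / r) ^ Module.finrank ℝ E - 1 := by
    unfold kappa
    congr 2
    field_simp
  have hk0 : 0 ≤ kappa E e r := kappa_nonneg he.le hr
  have hsplit : ENNReal.ofReal (((r + e) / r) ^ Module.finrank ℝ E) =
      1 + ENNReal.ofReal (kappa E e r) := by
    rw [← ENNReal.ofReal_one, ← ENNReal.ofReal_add zero_le_one hk0, hk]
    congr 1
    ring
  have hYfin : μ Y ≠ ∞ := ne_top_of_le_ne_top hBfin (measure_mono diff_subset)
  -- the core inequality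
  have hcore : μ A ≤ μ Z + ENNReal.ofReal (kappa E e r) * μ (B \ W) := by
    have h2 : μ A + μ Y ≤ μ Y + (μ Z + ENNReal.ofReal (kappa E e r) * μ (B \ W)) := by
      calc μ A + μ Y = μ (B' \ Th) := hAY
        _ ≤ ENNReal.ofReal (((r + e) / r) ^ Module.finrank ℝ E) * μ (B \ W) := hQ
        _ = μ (B \ W) + ENNReal.ofReal (kappa E e r) * μ (B \ W) := by
              rw [hsplit, add_mul, one_mul]
        _ = μ Y + (μ Z + ENNReal.ofReal (kappa E e r) * μ (B \ W)) := by
              rw [← add_assoc]
              congr 1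
              exact hYZ.symm
    rw [add_comm (μ A)] at h2
    exact (ENNReal.add_le_add_iff_left hYfin).1 h2
  calc μ (thickening e (W ∪ B) \ (W ∪ B)) ≤ μ (S1 ∪ A) := measure_mono hcover
    _ ≤ μ S1 + μ A := measure_union_le _ _
    _ ≤ μ S1 + (μ Z + ENNReal.ofReal (kappa E e r) * μ (B \ W)) := by gcongr
    _ = μ (Th \ W) + ENNReal.ofReal (kappa E e r) * μ (B \ W) := by
          rw [← add_assoc, hS1Z]

end Vale.Agent.Lib.P137A
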