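import Vale.Agent.Lib.P137A.A1

open MeasureTheory Set Metric TopologicalSpace
open scoped ENNReal Pointwise

namespace Vale.Agent.Lib.P137A

variable {E : Type*} [NormedAddCommGroup E] [NormedSpace ℝ E] [MeasurableSpace E] [BorelSpace E]
  [FiniteDimensional ℝ E] (μ : Measure E) [μ.IsAddHaarMeasure]

omit [MeasurableSpace E] [BorelSpace E] [FiniteDimensional ℝ E] in
lemma kappa_anti {e R ρ : ℝ} (he : 0 ≤ e) (hR : 0 < R) (hρ : R ≤ ρ) :
    kappa E e ρ ≤ kappa E e R := by
  unfold kappa
  have hρ0 : 0 < ρ := lt_of_lt_of_le hR hρ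
  have h1 : e / ρ ≤ e / R := div_le_div_of_nonneg_left he hR hρ
  have h2 : 0 ≤ 1 + e / ρ := by
    have := div_nonneg he hρ0.le
    linarith
  have := pow_le_pow_left₀ h2 (by linarith : 1 + e / ρ ≤ 1 + e / R) (Module.finrank ℝ E)
  linarith

/-- The outer `e`-shell of a set. -/
def shell (e : ℝ) (W : Set E) : Set E := thickening e W \ W

omit [BorelSpace E] [FiniteDimensional ℝ E] in
lemma shell_def (e : ℝ) (W : Set E) : shell e W = thickening e W \ W := rfl

/-- Adding a sequence of balls of radius at least `R`. -/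
theorem shell_iUnion_le {W : Set E} (hW : IsOpen W) {R e : ℝ} (hR : 0 < R) (he : 0 < e)
    (c : ℕ → E) (ρ : ℕ → ℝ) (hρ : ∀ n, R ≤ ρ n) :
    μ (shell e (W ∪ ⋃ n, ball (c n) (ρ n))) ≤
      μ (shell e W) + ENNReal.ofReal (kappa E e R) * μ ((W ∪ ⋃ n, ball (c n) (ρ n)) \ W) := by
  -- finite unions
  set V : ℕ → Set E := fun n => W ∪ ⋃ k ∈ Finset.range n, ball (c k) (ρ k) with hV
  set W' := W ∪ ⋃ n, ball (c n) (ρ n) with hW'
  have hVo : ∀ n, IsOpen (V n) := fun n =>
    hW.union (isOpen_biUnion fun _ _ => isOpen_ball)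
  have hVsucc : ∀ n, V (n + 1) = V n ∪ ball (c n) (ρ n) := by
    intro n
    simp only [hV, Finset.range_add_one, Finset.set_biUnion_insert]
    ext x
    simp only [mem_union]
    tauto
  have hVW' : ∀ n, V n ⊆ W' := by
    intro n x hx
    rcases hx with hx | hx
    · exact Or.inl hx
    · simp only [mem_iUnion] at hx
      obtain ⟨k, _, hk⟩ := hx
      exact Or.inr (mem_iUnion.2 ⟨k, hk⟩)
  have hVmono : Monotone V := by
    apply monotone_nat_of_le_succ
    intro n
    rw [hVsucc]
    exact subset_union_left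
  -- induction along the finite unions
  have hind : ∀ n, μ (shell e (V n)) ≤
      μ (shell e W) + ENNReal.ofReal (kappa E e R) * μ (V n \ W) := by
    intro n
    induction n with
    | zero =>
      have : V 0 = W := by simp [hV]
      simp [this]
    | succ n ih =>
      have h1 := shell_union_ball_le μ (hVo n) (c n) (lt_of_lt_of_le hR (hρ n)) he
      rw [← hVsucc] at h1
      have hk : ENNReal.ofReal (kappa E e (ρ n)) ≤ ENNReal.ofReal (kappa E e R) :=
        ENNReal.ofReal_le_ofReal (kappa_anti he.le hR (hρ n))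
      have hadd : μ (V n \ W) + μ (ball (c n) (ρ n) \ V n) ≤ μ (V (n + 1) \ W) := by
        rw [← measure_union]
        · apply measure_mono
          rintro x (⟨h1, h2⟩ | ⟨h1, h2⟩)
          · exact ⟨hVsucc n ▸ Or.inl h1, h2⟩
          · refine ⟨hVsucc n ▸ Or.inr h1, fun h => h2 (Or.inl h)⟩
        · rw [Set.disjoint_left]
          rintro x ⟨h1, _⟩ ⟨_, h2⟩
          exact h2 h1
        · exact isOpen_ball.measurableSet.diff (hVo n).measurableSet
      calc μ (shell e (V (n + 1)))
          ≤ μ (shell e (V n)) + ENNReal.ofReal (kappa E e (ρ n)) * μ (ball (c n) (ρ n) \ V n) := h1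
        _ ≤ (μ (shell e W) + ENNReal.ofReal (kappa E e R) * μ (V n \ W))
              + ENNReal.ofReal (kappa E e R) * μ (ball (c n) (ρ n) \ V n) := by
              gcongr
        _ = μ (shell e W) + ENNReal.ofReal (kappa E e R)
              * (μ (V n \ W) + μ (ball (c n) (ρ n) \ V n)) := by
              rw [mul_add, add_assoc]
        _ ≤ μ (shell e W) + ENNReal.ofReal (kappa E e R) * μ (V (n + 1) \ W) := by
              gcongr
  -- passage to the limit
  have hU : shell e W' = ⋃ n, (thickening e (V n) \ W') := by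
    have hWU : W' = ⋃ n, V n := by
      ext x
      simp only [hW', hV, mem_union, mem_iUnion]
      constructor
      · rintro (h | ⟨k, hk⟩)
        · exact ⟨0, Or.inl h⟩
        · exact ⟨k + 1, Or.inr ⟨k, Finset.self_mem_range_succ k, hk⟩⟩
      · rintro ⟨n, h | ⟨k, _, hk⟩⟩
        · exact Or.inl h
        · exact Or.inr ⟨k, hk⟩
    ext x
    simp only [shell, mem_sdiff, mem_iUnion, mem_thickening_iff]
    constructor
    · rintro ⟨⟨z, hz, hd⟩, hx⟩
      rw [hWU] at hz
      obtain ⟨n, hn⟩ := mem_iUnion.1 hz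
      exact ⟨n, ⟨z, hn, hd⟩, hx⟩
    · rintro ⟨n, ⟨z, hz, hd⟩, hx⟩
      exact ⟨⟨z, hVW' n hz, hd⟩, hx⟩
  have hmono : Monotone fun n => thickening e (V n) \ W' := by
    intro m n hmn
    exact sdiff_subset_sdiff_left (thickening_subset_of_subset e (hVmono hmn))
  rw [hU, hmono.measure_iUnion]
  apply iSup_le
  intro n
  calc μ (thickening e (V n) \ W') ≤ μ (shell e (V n)) :=
        measure_mono (sdiff_subset_sdiff_right (hVW' n))
    _ ≤ μ (shell e W) + ENNReal.ofReal (kappa E e R) * μ (V n \ W) := hind n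
    _ ≤ μ (shell e W) + ENNReal.ofReal (kappa E e R) * μ (W' \ W) := by
        gcongr
        exact hVW' n

/-- Adding an arbitrary family of balls of radius at least `R`. -/
theorem shell_biUnion_le {W : Set E} (hW : IsOpen W) {R e : ℝ} (hR : 0 < R) (he : 0 < e)
    (F : Set (E × ℝ)) (hF : ∀ p ∈ F, R ≤ p.2) :
    μ (shell e (W ∪ ⋃ p ∈ F, ball p.1 p.2)) ≤
      μ (shell e W) + ENNReal.ofReal (kappa E e R) * μ ((W ∪ ⋃ p ∈ F, ball p.1 p.2) \ W) := by
  obtain ⟨T, hTF, hTc, hTU⟩ := isOpen_biUnion_countable F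
    (fun (p : E × ℝ) => ball p.1 p.2) (fun _ _ => isOpen_ball)
  rw [← hTU]
  rcases T.eq_empty_or_nonempty with rfl | hne
  · simp
  obtain ⟨g, rfl⟩ := hTc.exists_eq_range hne
  have h := shell_iUnion_le μ hW hR he (fun n => (g n).1) (fun n => (g n).2)
    (fun n => hF _ (hTF (mem_range_self n)))
  simpa [biUnion_range] using h

/-- Chain version: peeling levels of balls down to the empty set. -/
theorem shell_chain_le (W : ℕ → Set E) (hW : ∀ j, IsOpen (W j)) (r : ℕ → ℝ) (hr : ∀ j, 0 < r j)
    {e : ℝ} (he : 0 < e) (F : ℕ → Set (E × ℝ)) (hF : ∀ j, ∀ p ∈ F j, r j ≤ p.2)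
    (hWF : ∀ j, W j = W (j + 1) ∪ ⋃ p ∈ F j, ball p.1 p.2)
    {J : ℕ} (hJ : W J = ∅) :
    μ (shell e (W 0)) ≤ ∑ j ∈ Finset.range J, ENNReal.ofReal (kappa E e (r j)) * μ (W j \ W (j + 1)) := by
  have hstep : ∀ j, μ (shell e (W j)) ≤ μ (shell e (W (j + 1))) +
      ENNReal.ofReal (kappa E e (r j)) * μ (W j \ W (j + 1)) := by
    intro j
    have := shell_biUnion_le μ (hW (j + 1)) (hr j) he (F j) (hF j)
    rw [← hWF j] at this
    exact this
  -- induct from the top
  have key : ∀ n, n ≤ J → μ (shell e (W (J - n))) ≤ ∑ j ∈ Finset.Ico (J - n) J,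
      ENNReal.ofReal (kappa E e (r j)) * μ (W j \ W (j + 1)) := by
    intro n
    induction n with
    | zero =>
      intro _
      simp [hJ, shell]
    | succ n ih =>
      intro hn
      have hn' : n ≤ J := by omega
      have h1 := hstep (J - (n + 1))
      have h2 : J - (n + 1) + 1 = J - n := by omega
      rw [h2] at h1
      have h3 : Finset.Ico (J - (n + 1)) J = insert (J - (n + 1)) (Finset.Ico (J - n) J) := by
        ext x
        simp only [Finset.mem_Ico, Finset.mem_insert]
        omega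
      rw [h3, Finset.sum_insert (by simp; omega)]
      calc μ (shell e (W (J - (n + 1))))
          ≤ μ (shell e (W (J - n))) + ENNReal.ofReal (kappa E e (r (J - (n + 1))))
              * μ (W (J - (n + 1)) \ W (J - n)) := h1
        _ ≤ _ := by
            rw [add_comm]
            gcongr
            · rw [h2]
            · exact ih hn'
  have h0 := key J le_rfl
  rw [Nat.sub_self] at h0
  rw [Finset.range_eq_Ico]
  exact h0

end Vale.Agent.Lib.P137A
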